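import Mathlib

/-! Interpolation of derivatives on balls of real normed spaces: a small function with bounded
derivatives of all orders has small derivatives. -/

namespace Vale.Agent.P207.H535

open Set Metric Finset Matrix
open scoped Topology ContDiff Nat

/-- finite difference coefficients for the first derivative, nodes `0, 1, ..., k - 1` -/
lemma exists_coeff (k : ℕ) : ∃ c : Fin k → ℝ, ∀ i : ℕ, i < k →
    ∑ j : Fin k, c j * ((j : ℕ) : ℝ) ^ i = if i = 1 then 1 else 0 := by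
  let v : Fin k → ℝ := fun j => ((j : ℕ) : ℝ)
  have hv : Function.Injective v := by
    intro a b hab
    have : ((a : ℕ) : ℝ) = ((b : ℕ) : ℝ) := hab
    exact Fin.ext (by exact_mod_cast this)
  have hdet : (Matrix.vandermonde v)ᵀ.det ≠ 0 := by
    rw [Matrix.det_transpose]
    exact Matrix.det_vandermonde_ne_zero_iff.2 hv
  let A := (Matrix.vandermonde v)ᵀ
  let e : Fin k → ℝ := fun i => if (i : ℕ) = 1 then 1 else 0
  refine ⟨A⁻¹ *ᵥ e, ?_⟩
  intro i hi
  have h1 : A *ᵥ (A⁻¹ *ᵥ e) = e := by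
    rw [Matrix.mulVec_mulVec, Matrix.mul_nonsing_inv _ (isUnit_iff_ne_zero.2 hdet),
      Matrix.one_mulVec]
  have h2 := congrFun h1 ⟨i, hi⟩
  simp only [Matrix.mulVec, dotProduct] at h2 ⊢
  rw [← show (e ⟨i, hi⟩ : ℝ) = if i = 1 then (1 : ℝ) else 0 from rfl, ← h2]
  refine Finset.sum_congr rfl fun j _ => ?_
  simp only [A, Matrix.transpose_apply, Matrix.vandermonde_apply, v]
  ring

/-- the coefficients -/
noncomputable def cf (k : ℕ) : Fin k → ℝ := (exists_coeff k).choose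

lemma cf_spec (k : ℕ) : ∀ i : ℕ, i < k →
    ∑ j : Fin k, cf k j * ((j : ℕ) : ℝ) ^ i = if i = 1 then 1 else 0 := (exists_coeff k).choose_spec

/-- the constant of the one step inequality -/
noncomputable def cI (k : ℕ) : ℝ := k * (∑ j : Fin k, |cf k j|) + 1

lemma cI_pos (k : ℕ) : 0 < cI k := by
  have : 0 ≤ (k : ℝ) * (∑ j : Fin k, |cf k j|) :=
    mul_nonneg (Nat.cast_nonneg _) (Finset.sum_nonneg fun _ _ => abs_nonneg _)
  simp only [cI]; linarith

variable {E F : Type*} [NormedAddCommGroup E] [NormedSpace ℝ E]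
  [NormedAddCommGroup F] [NormedSpace ℝ F]

/-- one variable, one sided: the derivative at the left end point -/
lemma deriv_zero_bound {k : ℕ} (hk : 2 ≤ k) {ph : ℝ → F} {h ρ M : ℝ} (hh : 0 < h)
    (hp : ContDiffOn ℝ k ph (Icc 0 h)) (hb : ∀ s ∈ Icc 0 h, ‖ph s‖ ≤ ρ)
    (hM : ∀ s ∈ Icc 0 h, ‖iteratedDerivWithin k ph (Icc 0 h) s‖ ≤ M) :
    ‖derivWithin ph (Icc 0 h) 0‖ ≤ cI k * (ρ / h + M * h ^ (k - 1)) := by
  obtain ⟨n, rfl⟩ : ∃ n, k = n + 1 := ⟨k - 1, by omega⟩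
  have hn : 1 ≤ n := by omega
  set δ : ℝ := h / ((n + 1 : ℕ) : ℝ) with hδ
  have hk0 : (0 : ℝ) < ((n + 1 : ℕ) : ℝ) := by positivity
  have hδ0 : 0 < δ := div_pos hh hk0
  have hM0 : 0 ≤ M := le_trans (norm_nonneg _) (hM 0 ⟨le_refl _, hh.le⟩)
  have hρ0 : 0 ≤ ρ := le_trans (norm_nonneg _) (hb 0 ⟨le_refl _, hh.le⟩)
  -- the Taylor polynomial at the nodes
  have hnode : ∀ j : Fin (n + 1), ((j : ℕ) : ℝ) * δ ∈ Icc 0 h := by
    intro j
    refine ⟨by positivity, ?_⟩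
    have : ((j : ℕ) : ℝ) ≤ ((n + 1 : ℕ) : ℝ) := by exact_mod_cast j.2.le
    calc ((j : ℕ) : ℝ) * δ ≤ ((n + 1 : ℕ) : ℝ) * δ := by gcongr
      _ = h := by rw [hδ]; field_simp
  let D : ℕ → F := fun i => iteratedDerivWithin i ph (Icc 0 h) 0
  have hT : ∀ j : Fin (n + 1), ‖ph (((j : ℕ) : ℝ) * δ) -
      ∑ i ∈ Finset.range (n + 1), ((i ! : ℝ)⁻¹ * (((j : ℕ) : ℝ) * δ) ^ i) • D i‖ ≤ M * h ^ (n + 1) := by
    intro j
    have h1 := taylor_mean_remainder_bound (n := n) hh.le (by exact_mod_cast hp) (hnode j) hM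
    rw [taylor_within_apply] at h1
    simp only [sub_zero] at h1
    refine h1.trans ?_
    have h2 : (((j : ℕ) : ℝ) * δ) ^ (n + 1) ≤ h ^ (n + 1) :=
      pow_le_pow_left₀ (hnode j).1 (hnode j).2 _
    have h3 : (1 : ℝ) ≤ (n ! : ℝ) := by exact_mod_cast Nat.one_le_iff_ne_zero.2 (Nat.factorial_ne_zero n)
    calc M * (((j : ℕ) : ℝ) * δ) ^ (n + 1) / (n ! : ℝ)
        ≤ M * (((j : ℕ) : ℝ) * δ) ^ (n + 1) := div_le_self (by
          have := (hnode j).1
          positivity) h3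
      _ ≤ M * h ^ (n + 1) := by gcongr
  -- the linear combination
  have hcomb : ∑ j : Fin (n + 1), cf (n + 1) j •
      ∑ i ∈ Finset.range (n + 1), ((i ! : ℝ)⁻¹ * (((j : ℕ) : ℝ) * δ) ^ i) • D i = δ • D 1 := by
    have h1 : ∑ j : Fin (n + 1), cf (n + 1) j •
        ∑ i ∈ Finset.range (n + 1), ((i ! : ℝ)⁻¹ * (((j : ℕ) : ℝ) * δ) ^ i) • D i
        = ∑ i ∈ Finset.range (n + 1), ((i ! : ℝ)⁻¹ * δ ^ i *
          (∑ j : Fin (n + 1), cf (n + 1) j * ((j : ℕ) : ℝ) ^ i)) • D i := by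
      simp only [Finset.smul_sum]
      rw [Finset.sum_comm]
      refine Finset.sum_congr rfl fun i _ => ?_
      rw [Finset.mul_sum, Finset.sum_smul]
      refine Finset.sum_congr rfl fun j _ => ?_
      rw [smul_smul]
      congr 1
      rw [mul_pow]; ring
    rw [h1]
    have h2 : ∀ i ∈ Finset.range (n + 1), ((i ! : ℝ)⁻¹ * δ ^ i *
          (∑ j : Fin (n + 1), cf (n + 1) j * ((j : ℕ) : ℝ) ^ i)) • D i
          = if i = 1 then δ • D 1 else 0 := by
      intro i hi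
      rw [cf_spec (n + 1) i (Finset.mem_range.1 hi)]
      split_ifs with h
      · subst h; simp
      · simp
    rw [Finset.sum_congr rfl h2, Finset.sum_ite_eq' (Finset.range (n + 1)) 1]
    rw [if_pos (Finset.mem_range.2 (by omega))]
  have hD1 : D 1 = derivWithin ph (Icc 0 h) 0 := by
    simp only [D]
    exact congrFun iteratedDerivWithin_one 0
  -- estimate
  have hsum : ‖δ • D 1‖ ≤ (∑ j : Fin (n + 1), |cf (n + 1) j|) * (ρ + M * h ^ (n + 1)) := by
    rw [← hcomb, Finset.sum_mul]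
    refine (norm_sum_le _ _).trans (Finset.sum_le_sum fun j _ => ?_)
    rw [norm_smul, Real.norm_eq_abs]
    refine mul_le_mul_of_nonneg_left ?_ (abs_nonneg _)
    have h1 := hT j
    have h2 := hb _ (hnode j)
    calc _ = ‖ph (((j : ℕ) : ℝ) * δ) - (ph (((j : ℕ) : ℝ) * δ) -
        ∑ i ∈ Finset.range (n + 1), ((i ! : ℝ)⁻¹ * (((j : ℕ) : ℝ) * δ) ^ i) • D i)‖ := by
          rw [sub_sub_cancel]
      _ ≤ _ := (norm_sub_le _ _).trans (add_le_add h2 h1)
  rw [norm_smul, Real.norm_eq_abs, abs_of_pos hδ0, hD1] at hsum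
  set S := ∑ j : Fin (n + 1), |cf (n + 1) j| with hS
  have hS0 : 0 ≤ S := Finset.sum_nonneg fun _ _ => abs_nonneg _
  have h5 : ‖derivWithin ph (Icc 0 h) 0‖ ≤ ((n + 1 : ℕ) : ℝ) * S * (ρ / h + M * h ^ n) := by
    have h6 : ‖derivWithin ph (Icc 0 h) 0‖ = (δ * ‖derivWithin ph (Icc 0 h) 0‖) / δ := by
      field_simp
    rw [h6]
    calc (δ * ‖derivWithin ph (Icc 0 h) 0‖) / δ ≤ (S * (ρ + M * h ^ (n + 1))) / δ := by
          gcongr
      _ = ((n + 1 : ℕ) : ℝ) * S * (ρ / h + M * h ^ n) := by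
          rw [hδ, pow_succ]; field_simp
  refine h5.trans ?_
  have h7 : 0 ≤ ρ / h + M * h ^ n := by positivity
  simp only [cI, Nat.add_sub_cancel]
  rw [← hS]
  nlinarith [h7]

/-- **One step inequality.** -/
theorem fderiv_bound {k : ℕ} (hk : 1 ≤ k) {f : E → F} {x : E} {U : Set E} {h ρ M : ℝ}
    (hU : IsOpen U) (hh : 0 < h) (hB : closedBall x h ⊆ U) (hf : ContDiffOn ℝ k f U)
    (hb : ∀ y ∈ closedBall x h, ‖f y‖ ≤ ρ)
    (hM : ∀ y ∈ closedBall x h, ‖iteratedFDeriv ℝ k f y‖ ≤ M) :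
    ‖fderiv ℝ f x‖ ≤ cI k * (ρ / h + M * h ^ (k - 1)) := by
  have hxm : x ∈ closedBall x h := mem_closedBall_self hh.le
  have hM0 : 0 ≤ M := le_trans (norm_nonneg _) (hM x hxm)
  have hρ0 : 0 ≤ ρ := le_trans (norm_nonneg _) (hb x hxm)
  rcases Nat.lt_or_ge k 2 with hk2 | hk2
  · obtain rfl : k = 1 := by omega
    have h1 := hM x hxm
    rw [← norm_iteratedFDeriv_one (𝕜 := ℝ) (f := f) (x := x)]
    have h2 : 1 ≤ cI 1 := by
      have : 0 ≤ ((1 : ℕ) : ℝ) * (∑ j : Fin 1, |cf 1 j|) :=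
        mul_nonneg (Nat.cast_nonneg _) (Finset.sum_nonneg fun _ _ => abs_nonneg _)
      simp only [cI]; linarith
    have h3 : 0 ≤ ρ / h := by positivity
    simp only [Nat.sub_self, pow_zero, mul_one]
    nlinarith
  -- reduce to unit vectors
  have hC0 : 0 ≤ cI k * (ρ / h + M * h ^ (k - 1)) :=
    mul_nonneg (cI_pos k).le (by positivity)
  refine ContinuousLinearMap.opNorm_le_of_unit_norm hC0 fun v hv => ?_
  let g : ℝ →L[ℝ] E := (ContinuousLinearMap.id ℝ ℝ).smulRight v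
  have hg : ∀ s : ℝ, g s = s • v := fun s => by simp [g]
  have hgn : ‖g‖ ≤ 1 := by
    refine ContinuousLinearMap.opNorm_le_bound _ zero_le_one fun s => ?_
    rw [hg, norm_smul, hv, one_mul, mul_one]
  let f' : E → F := fun y => f (x + y)
  let U' : Set E := (fun y => x + y) ⁻¹' U
  have hU' : IsOpen U' := hU.preimage (by fun_prop)
  have hf' : ContDiffOn ℝ k f' U' := by
    refine hf.comp (contDiff_const.add contDiff_id).contDiffOn ?_
    intro y hy; exact hy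
  have hV : IsOpen (g ⁻¹' U') := hU'.preimage g.continuous
  let ph : ℝ → F := f' ∘ g
  have hpV : ContDiffOn ℝ k ph (g ⁻¹' U') := hf'.comp g.contDiff.contDiffOn (fun s hs => hs)
  have hmem : ∀ s ∈ Icc (0 : ℝ) h, x + g s ∈ closedBall x h := by
    intro s hs
    rw [mem_closedBall, dist_eq_norm, add_sub_cancel_left, hg, norm_smul, hv, mul_one,
      Real.norm_eq_abs, abs_of_nonneg hs.1]
    exact hs.2
  have hIV : Icc (0 : ℝ) h ⊆ g ⁻¹' U' := fun s hs => hB (hmem s hs)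
  have huniq : UniqueDiffOn ℝ (Icc (0 : ℝ) h) := uniqueDiffOn_Icc hh
  have key : ∀ s ∈ Icc (0 : ℝ) h, ‖iteratedDerivWithin k ph (Icc 0 h) s‖ ≤ M := by
    intro s hs
    have hat : ContDiffAt ℝ k ph s := hpV.contDiffAt (hV.mem_nhds (hIV hs))
    rw [iteratedDerivWithin_eq_iteratedDeriv huniq hat hs, ← norm_iteratedFDeriv_eq_norm_iteratedDeriv]
    have h1 : iteratedFDeriv ℝ k ph s = iteratedFDerivWithin ℝ k ph (g ⁻¹' U') s :=
      (iteratedFDerivWithin_of_isOpen k hV (hIV hs)).symm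
    rw [h1, g.iteratedFDerivWithin_comp_right hf' hU'.uniqueDiffOn hV.uniqueDiffOn (hIV hs) le_rfl]
    refine (ContinuousMultilinearMap.norm_compContinuousLinearMap_le _ _).trans ?_
    rw [iteratedFDerivWithin_of_isOpen k hU' (hIV hs)]
    have h2 : iteratedFDeriv ℝ k f' (g s) = iteratedFDeriv ℝ k f (x + g s) :=
      iteratedFDeriv_comp_add_left k x (g s)
    rw [h2]
    have h3 : ∏ _i : Fin k, ‖g‖ ≤ 1 := by
      rw [Finset.prod_const]
      exact pow_le_one₀ (norm_nonneg _) hgn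
    calc ‖iteratedFDeriv ℝ k f (x + g s)‖ * ∏ _i : Fin k, ‖g‖
        ≤ M * 1 := by
          refine mul_le_mul (hM _ (hmem s hs)) h3 ?_ hM0
          exact Finset.prod_nonneg fun _ _ => norm_nonneg _
      _ = M := mul_one M
  have hbp : ∀ s ∈ Icc (0 : ℝ) h, ‖ph s‖ ≤ ρ := fun s hs => hb _ (hmem s hs)
  have h0 := deriv_zero_bound hk2 hh (hpV.mono hIV) hbp key
  have hx0 : (0 : ℝ) ∈ Icc (0 : ℝ) h := ⟨le_refl _, hh.le⟩
  have hdf : DifferentiableAt ℝ f x := by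
    refine (hf.contDiffAt (hU.mem_nhds (hB hxm))).differentiableAt ?_
    exact_mod_cast (by omega : k ≠ 0)
  have hd : HasDerivAt ph (fderiv ℝ f x v) 0 := by
    have h1 : HasFDerivAt f (fderiv ℝ f x) (x + (0 : ℝ) • v) := by
      simpa using hdf.hasFDerivAt
    have h2 : HasDerivAt (fun s : ℝ => x + s • v) v 0 := by
      simpa using ((hasDerivAt_id (0 : ℝ)).smul_const v).const_add x
    have h3 := h1.comp_hasDerivAt (0 : ℝ) h2
    have h4 : ph = f ∘ fun s : ℝ => x + s • v := by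
      funext s; simp [ph, f', hg]
    rw [h4]; exact h3
  rw [hd.hasDerivWithinAt.derivWithin (huniq 0 hx0)] at h0
  exact h0

/-- norms of iterated derivatives of iterated derivatives -/
lemma norm_iter_iter (j : ℕ) : ∀ (k : ℕ) (f : E → F) (x : E),
    ‖iteratedFDeriv ℝ k (iteratedFDeriv ℝ j f) x‖ = ‖iteratedFDeriv ℝ (j + k) f x‖ := by
  induction j with
  | zero =>
    intro k f x
    rw [iteratedFDeriv_zero_eq_comp, LinearIsometryEquiv.norm_iteratedFDeriv_comp_left, Nat.zero_add]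
  | succ j ih =>
    intro k f x
    have h1 := LinearIsometryEquiv.norm_iteratedFDeriv_comp_left (𝕜 := ℝ)
      ((continuousMultilinearCurryLeftEquiv ℝ (fun _ : Fin (j + 1) => E) F).symm)
      (fderiv ℝ (iteratedFDeriv ℝ j f)) x k
    rw [iteratedFDeriv_succ_eq_comp_left]
    refine h1.trans ?_
    rw [norm_iteratedFDeriv_fderiv, ih (k + 1) f x, show j + (k + 1) = j + 1 + k by omega]

lemma contDiffOn_iter {f : E → F} {U : Set E} (hU : IsOpen U) (hf : ContDiffOn ℝ ∞ f U) (j k : ℕ) :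
    ContDiffOn ℝ k (iteratedFDeriv ℝ j f) U := by
  intro x hx
  have h1 : ContDiffAt ℝ ∞ f x := hf.contDiffAt (hU.mem_nhds hx)
  refine (h1.iteratedFDeriv_right (m := k) (i := j) ?_).contDiffWithinAt
  exact_mod_cast (le_top : ((k + j : ℕ) : ℕ∞) ≤ ⊤)

/-- **Interpolation.** A smooth function of size at most `ρ` all of whose derivatives are bounded
has all derivatives of size at most `C * ρ ^ (1 - ε)` on a smaller ball. -/
theorem interp (M : ℕ → ℝ) (j : ℕ) : ∀ {ε r R : ℝ}, 0 < ε → r < R → ∃ C : ℝ, 0 < C ∧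
    ∀ (f : E → F) (c : E) (ρ : ℝ), ContDiffOn ℝ ∞ f (ball c R) →
    (∀ i, ∀ y ∈ ball c R, ‖iteratedFDeriv ℝ i f y‖ ≤ M i) → 0 < ρ → ρ ≤ 1 →
    (∀ y ∈ ball c R, ‖f y‖ ≤ ρ) → ∀ y ∈ ball c r, ‖iteratedFDeriv ℝ j f y‖ ≤ C * ρ ^ (1 - ε) := by
  induction j with
  | zero =>
    intro ε r R hε hr
    refine ⟨1, one_pos, fun f c ρ _ _ hρ hρ1 hb y hy => ?_⟩
    rw [norm_iteratedFDeriv_zero, one_mul]
    refine (hb y (ball_subset_ball hr.le hy)).trans ?_
    calc ρ = ρ ^ (1 : ℝ) := (Real.rpow_one ρ).symm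
      _ ≤ ρ ^ (1 - ε) := Real.rpow_le_rpow_of_exponent_ge hρ hρ1 (by linarith)
  | succ j ih =>
    intro ε r R hε hr
    set ε₁ : ℝ := min ε 1 with hε₁
    have hε₁0 : 0 < ε₁ := lt_min hε one_pos
    have hε₁1 : ε₁ ≤ 1 := min_le_right _ _
    have hε₁ε : ε₁ ≤ ε := min_le_left _ _
    set r' : ℝ := (r + R) / 2 with hr'
    have hrr' : r < r' := by rw [hr']; linarith
    have hr'R : r' < R := by rw [hr']; linarith
    obtain ⟨C', hC'0, hC'⟩ := ih (ε := ε₁ / 2) (r := r') (R := R) (by linarith) hr'R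
    obtain ⟨k, hk⟩ := exists_nat_ge (2 / ε₁ + 1)
    have hkpos : (0 : ℝ) < k := by
      have : 0 < 2 / ε₁ := by positivity
      linarith
    have hk1 : 1 ≤ k := by
      have : 0 < k := by exact_mod_cast hkpos
      omega
    set h₀ : ℝ := (r' - r) / 2 with hh₀
    have hh₀0 : 0 < h₀ := by rw [hh₀]; linarith
    set M' : ℝ := max (M (j + k)) 0 with hM'
    have hM'0 : 0 ≤ M' := le_max_right _ _
    refine ⟨cI k * (C' / h₀ + M' * h₀ ^ (k - 1)) + 1, ?_, ?_⟩
    · have := (cI_pos k).le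
      positivity
    intro f c ρ hf hM hρ hρ1 hb y hy
    have hfib := hC' f c ρ hf hM hρ hρ1 hb
    set t : ℝ := ρ ^ ((1 - ε₁ / 2) / k) with ht
    have ht0 : 0 < t := Real.rpow_pos_of_pos hρ _
    have hexp : 0 ≤ (1 - ε₁ / 2) / k := by
      apply div_nonneg _ hkpos.le; linarith
    have ht1 : t ≤ 1 := Real.rpow_le_one hρ.le hρ1 hexp
    have htk : t ^ k = ρ ^ (1 - ε₁ / 2) := by
      rw [ht, ← Real.rpow_natCast, ← Real.rpow_mul hρ.le]
      congr 1
      field_simp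
    have htk1 : t ^ (k - 1) ≤ ρ ^ (1 - ε) := by
      rw [ht, ← Real.rpow_natCast, ← Real.rpow_mul hρ.le]
      apply Real.rpow_le_rpow_of_exponent_ge hρ hρ1
      have hcast : ((k - 1 : ℕ) : ℝ) = (k : ℝ) - 1 := by
        rw [Nat.cast_sub hk1]; simp
      rw [hcast]
      have h1 : (1 - ε₁ / 2) / k * ((k : ℝ) - 1) = (1 - ε₁ / 2) - (1 - ε₁ / 2) / k := by
        field_simp
      rw [h1]
      have h2 : (1 - ε₁ / 2) / k ≤ ε₁ / 2 := by
        rw [div_le_iff₀ hkpos]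
        have h3 : 2 / ε₁ ≤ k := by linarith
        have h4 : 2 ≤ k * ε₁ := by
          rw [div_le_iff₀ hε₁0] at h3; linarith
        nlinarith
      linarith
    have hG : ContDiffOn ℝ k (iteratedFDeriv ℝ j f) (ball c R) := contDiffOn_iter isOpen_ball hf j k
    set h : ℝ := h₀ * t with hh
    have hh0 : 0 < h := mul_pos hh₀0 ht0
    have hhle : h ≤ h₀ := by rw [hh]; nlinarith
    have hsub : closedBall y h ⊆ ball c r' := by
      intro z hz
      rw [mem_closedBall] at hz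
      rw [mem_ball] at hy ⊢
      calc dist z c ≤ dist z y + dist y c := dist_triangle _ _ _
        _ < h₀ + r := by linarith
        _ < r' := by rw [hh₀]; linarith
    have hstep := fderiv_bound hk1 (isOpen_ball (x := c) (ε := R)) hh0
      (hsub.trans (ball_subset_ball hr'R.le)) hG
      (ρ := C' * ρ ^ (1 - ε₁ / 2)) (M := M') (fun z hz => hfib z (hsub hz))
      (fun z hz => by
        rw [norm_iter_iter]
        exact (hM _ z (ball_subset_ball hr'R.le (hsub hz))).trans (le_max_left _ _))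
    rw [norm_fderiv_iteratedFDeriv] at hstep
    refine hstep.trans ?_
    have e1 : C' * ρ ^ (1 - ε₁ / 2) / h = C' / h₀ * t ^ (k - 1) := by
      rw [← htk, hh]
      obtain ⟨n, rfl⟩ : ∃ n, k = n + 1 := ⟨k - 1, by omega⟩
      rw [pow_succ, Nat.add_sub_cancel]
      field_simp
    have e2 : M' * h ^ (k - 1) = M' * h₀ ^ (k - 1) * t ^ (k - 1) := by
      rw [hh, mul_pow]; ring
    rw [e1, e2]
    have hA : 0 ≤ C' / h₀ + M' * h₀ ^ (k - 1) := by positivity
    have hρp : 0 < ρ ^ (1 - ε) := Real.rpow_pos_of_pos hρ _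
    calc cI k * (C' / h₀ * t ^ (k - 1) + M' * h₀ ^ (k - 1) * t ^ (k - 1))
        = cI k * (C' / h₀ + M' * h₀ ^ (k - 1)) * t ^ (k - 1) := by ring
      _ ≤ cI k * (C' / h₀ + M' * h₀ ^ (k - 1)) * ρ ^ (1 - ε) := by
          refine mul_le_mul_of_nonneg_left htk1 (mul_nonneg (cI_pos k).le hA)
      _ ≤ (cI k * (C' / h₀ + M' * h₀ ^ (k - 1)) + 1) * ρ ^ (1 - ε) := by
          nlinarith

end Vale.Agent.P207.H535
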