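import Vale.Agent.P207.H535.Interp

/-! Limits of functions with uniformly bounded derivatives are smooth, with convergence of all
derivatives, locally uniformly. -/

namespace Vale.Agent.P207.H535

open Set Metric Filter
open scoped Topology ContDiff

variable {E F : Type*} [NormedAddCommGroup E] [NormedSpace ℝ E]
  [NormedAddCommGroup F] [NormedSpace ℝ F]

omit [NormedSpace ℝ E] [NormedSpace ℝ F] in
/-- pointwise convergence of uniformly Lipschitz functions is uniform on compact sets -/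
lemma unif_of_lip {ι : Type*} {l : Filter ι} [l.NeBot] {f : ι → E → F} {g : E → F} {K : Set E}
    (hK : IsCompact K) {L : ℝ} (hL : 0 ≤ L)
    (hlip : ∀ n, ∀ x ∈ K, ∀ y ∈ K, ‖f n x - f n y‖ ≤ L * ‖x - y‖)
    (hlim : ∀ y ∈ K, Tendsto (fun n => f n y) l (𝓝 (g y))) :
    TendstoUniformlyOn f g l K := by
  have hg : ∀ x ∈ K, ∀ y ∈ K, ‖g x - g y‖ ≤ L * ‖x - y‖ := fun x hx y hy =>
    le_of_tendsto ((hlim x hx).sub (hlim y hy)).norm (Eventually.of_forall fun n => hlip n x hx y hy)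
  rw [Metric.tendstoUniformlyOn_iff]
  intro ε hε
  set δ : ℝ := ε / (4 * (L + 1)) with hδ
  have hδ0 : 0 < δ := by positivity
  have hLδ : L * δ ≤ ε / 4 := by
    rw [hδ, ← mul_div_assoc, div_le_div_iff₀ (by positivity) (by norm_num)]
    nlinarith
  obtain ⟨t, htK, htf, hcov⟩ := hK.finite_cover_balls hδ0
  have hev : ∀ᶠ n in l, ∀ z ∈ t, dist (g z) (f n z) < ε / 4 := by
    rw [eventually_all_finite htf]
    intro z hz
    have h1 := (hlim z (htK hz))
    rw [Metric.tendsto_nhds] at h1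
    filter_upwards [h1 (ε / 4) (by linarith)] with n hn
    rw [dist_comm]; exact hn
  filter_upwards [hev] with n hn x hx
  obtain ⟨z, hz, hxz⟩ := mem_iUnion₂.1 (hcov hx)
  rw [mem_ball, dist_eq_norm] at hxz
  have h2 := hg x hx z (htK hz)
  have h3 := hlip n z (htK hz) x hx
  have h4 := hn z hz
  rw [dist_eq_norm] at h4 ⊢
  have h5 : L * ‖x - z‖ ≤ ε / 4 := (mul_le_mul_of_nonneg_left hxz.le hL).trans hLδ
  have h6 : L * ‖z - x‖ ≤ ε / 4 := by rw [norm_sub_rev]; exact h5
  calc ‖g x - f n x‖ = ‖(g x - g z) + (g z - f n z) + (f n z - f n x)‖ := by congr 1; abel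
    _ ≤ ‖g x - g z‖ + ‖g z - f n z‖ + ‖f n z - f n x‖ := norm_add₃_le
    _ < ε := by linarith

/-- Lipschitz bound on a ball from the bound on the first derivative -/
lemma lip_ball {f : E → F} {c : E} {R M : ℝ} (hf : ContDiffOn ℝ ∞ f (ball c R))
    (hM : ∀ y ∈ ball c R, ‖iteratedFDeriv ℝ 1 f y‖ ≤ M) :
    ∀ x ∈ ball c R, ∀ y ∈ ball c R, ‖f x - f y‖ ≤ M * ‖x - y‖ := by
  intro x hx y hy
  refine (convex_ball c R).norm_image_sub_le_of_norm_fderiv_le (𝕜 := ℝ) (fun z hz => ?_)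
    (fun z hz => ?_) hy hx
  · exact (hf.contDiffAt (isOpen_ball.mem_nhds hz)).differentiableAt (by simp)
  · rw [← norm_iteratedFDeriv_one]; exact hM z hz

lemma iter_sub {f g : E → F} {U : Set E} (hU : IsOpen U) (hf : ContDiffOn ℝ ∞ f U)
    (hg : ContDiffOn ℝ ∞ g U) (i : ℕ) {x : E} (hx : x ∈ U) :
    iteratedFDeriv ℝ i (fun y => f y - g y) x = iteratedFDeriv ℝ i f x - iteratedFDeriv ℝ i g x := by
  have h1 : ContDiffAt ℝ i f x := (hf.contDiffAt (hU.mem_nhds hx)).of_le (by exact_mod_cast le_top)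
  have h2 : ContDiffAt ℝ i g x := (hg.contDiffAt (hU.mem_nhds hx)).of_le (by exact_mod_cast le_top)
  exact iteratedFDeriv_sub_apply h1 h2

/-- all derivatives form a uniform Cauchy net on smaller balls -/
lemma cauchy_iter {ι : Type*} {l : Filter ι} [FiniteDimensional ℝ E] [l.NeBot]
    (M : ℕ → ℝ) {f : ι → E → F} {g : E → F} {c : E} {R : ℝ}
    (hf : ∀ n, ContDiffOn ℝ ∞ (f n) (ball c R))
    (hM : ∀ n i, ∀ y ∈ ball c R, ‖iteratedFDeriv ℝ i (f n) y‖ ≤ M i)
    (hlim : ∀ y ∈ ball c R, Tendsto (fun n => f n y) l (𝓝 (g y))) (i : ℕ) {r : ℝ} (hr : r < R) :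
    UniformCauchySeqOn (fun n => iteratedFDeriv ℝ i (f n)) l (ball c r) := by
  set r' := (r + R) / 2 with hr'
  have h1 : r < r' := by rw [hr']; linarith
  have h2 : r' < R := by rw [hr']; linarith
  obtain ⟨C, hC0, hC⟩ := interp (E := E) (F := F) (fun i => 2 * M i) i (ε := 1 / 2) (by norm_num) h1
  have hsub : closedBall c r' ⊆ ball c R := closedBall_subset_ball h2
  have hunif : TendstoUniformlyOn f g l (closedBall c r') := by
    refine unif_of_lip (isCompact_closedBall c r') (L := max (M 1) 0) (le_max_right _ _)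
      (fun n x hx y hy => ?_) (fun y hy => hlim y (hsub hy))
    exact (lip_ball (hf n) (hM n 1) x (hsub hx) y (hsub hy)).trans
      (mul_le_mul_of_nonneg_right (le_max_left _ _) (norm_nonneg _))
  have hcau := hunif.uniformCauchySeqOn
  intro u hu
  obtain ⟨ε, hε, hεu⟩ := Metric.mem_uniformity_dist.1 hu
  -- choose the size of the differences
  obtain ⟨ρ, hρ0, hρ1, hρ⟩ : ∃ ρ : ℝ, 0 < ρ ∧ ρ ≤ 1 ∧ C * ρ ^ (1 - 1 / 2 : ℝ) < ε := by
    refine ⟨min 1 ((ε / (2 * C)) ^ 2), lt_min one_pos (by positivity), min_le_left _ _, ?_⟩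
    have h3 : (min 1 ((ε / (2 * C)) ^ 2)) ^ (1 - 1 / 2 : ℝ) ≤ ε / (2 * C) := by
      have h4 : (0 : ℝ) ≤ min 1 ((ε / (2 * C)) ^ 2) := le_min zero_le_one (by positivity)
      calc (min 1 ((ε / (2 * C)) ^ 2)) ^ (1 - 1 / 2 : ℝ)
          ≤ ((ε / (2 * C)) ^ 2) ^ (1 - 1 / 2 : ℝ) :=
            Real.rpow_le_rpow h4 (min_le_right _ _) (by norm_num)
        _ = ε / (2 * C) := by
            have h5 : (0 : ℝ) ≤ ε / (2 * C) := by positivity
            rw [← Real.rpow_natCast, ← Real.rpow_mul h5]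
            norm_num
    calc C * (min 1 ((ε / (2 * C)) ^ 2)) ^ (1 - 1 / 2 : ℝ) ≤ C * (ε / (2 * C)) :=
          mul_le_mul_of_nonneg_left h3 hC0.le
      _ = ε / 2 := by field_simp
      _ < ε := by linarith
  filter_upwards [hcau _ (Metric.dist_mem_uniformity hρ0)] with p hp x hx
  apply hεu
  rw [dist_eq_norm]
  have hb : ball c r' ⊆ ball c R := ball_subset_ball h2.le
  have hxR : x ∈ ball c R := ball_subset_ball (h1.trans h2).le hx
  rw [← iter_sub isOpen_ball (hf p.1) (hf p.2) i hxR]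
  refine lt_of_le_of_lt (hC (fun y => f p.1 y - f p.2 y) c ρ ?_ ?_ hρ0 hρ1 ?_ x hx) hρ
  · exact ((hf p.1).mono hb).sub ((hf p.2).mono hb)
  · intro j y hy
    rw [iter_sub isOpen_ball (hf p.1) (hf p.2) j (hb hy)]
    have h5 := hM p.1 j y (hb hy)
    have h6 := hM p.2 j y (hb hy)
    exact (norm_sub_le _ _).trans (by linarith)
  · intro y hy
    have h7 := hp y (ball_subset_closedBall hy)
    rw [← dist_eq_norm]
    exact le_of_lt h7

/-- **Limits of functions with bounded derivatives are smooth**, with the same bounds and with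
convergence of all derivatives, uniformly on smaller balls. -/
theorem smooth_of_limit {ι : Type*} {l : Filter ι} [FiniteDimensional ℝ E] [CompleteSpace F]
    [l.NeBot] (M : ℕ → ℝ) {f : ι → E → F} {g : E → F} {c : E} {R : ℝ}
    (hf : ∀ n, ContDiffOn ℝ ∞ (f n) (ball c R))
    (hM : ∀ n i, ∀ y ∈ ball c R, ‖iteratedFDeriv ℝ i (f n) y‖ ≤ M i)
    (hlim : ∀ y ∈ ball c R, Tendsto (fun n => f n y) l (𝓝 (g y))) :
    ContDiffOn ℝ ∞ g (ball c R) ∧
    (∀ i, ∀ y ∈ ball c R, ‖iteratedFDeriv ℝ i g y‖ ≤ M i) ∧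
    (∀ i, ∀ y ∈ ball c R, Tendsto (fun n => iteratedFDeriv ℝ i (f n) y) l
      (𝓝 (iteratedFDeriv ℝ i g y))) ∧
    ∀ i, ∀ r < R, TendstoUniformlyOn (fun n => iteratedFDeriv ℝ i (f n))
      (iteratedFDeriv ℝ i g) l (ball c r) := by
  classical
  -- pointwise limits of the derivatives
  have hpt : ∀ i, ∀ y ∈ ball c R, ∃ G, Tendsto (fun n => iteratedFDeriv ℝ i (f n) y) l (𝓝 G) := by
    intro i y hy
    obtain ⟨r, hr1, hr2⟩ : ∃ r, dist y c < r ∧ r < R := exists_between (mem_ball.1 hy)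
    have h1 := cauchy_iter M hf hM hlim i hr2
    exact cauchy_map_iff_exists_tendsto.1 (h1.cauchy_map (mem_ball.2 hr1))
  choose! G hG using hpt
  let p : E → FormalMultilinearSeries ℝ E F := fun y i => G i y
  have hun : ∀ i, ∀ r < R, TendstoUniformlyOn (fun n => iteratedFDeriv ℝ i (f n)) (G i) l
      (ball c r) := by
    intro i r hr
    exact (cauchy_iter M hf hM hlim i hr).tendstoUniformlyOn_of_tendsto
      (fun y hy => hG i y (ball_subset_ball hr.le hy))
  have hder : ∀ i, ∀ y ∈ ball c R, HasFDerivAt (G i) ((G (i + 1) y).curryLeft) y := by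
    intro i y hy
    obtain ⟨r, hr1, hr2⟩ : ∃ r, dist y c < r ∧ r < R := exists_between (mem_ball.1 hy)
    have h1 : TendstoUniformlyOn (fun n z => (iteratedFDeriv ℝ (i + 1) (f n) z).curryLeft)
        (fun z => (G (i + 1) z).curryLeft) l (ball c r) := by
      exact ((continuousMultilinearCurryLeftEquiv ℝ (fun _ : Fin (i + 1) => E)
        F).isometry.uniformContinuous).comp_tendstoUniformlyOn (hun (i + 1) r hr2)
    refine hasFDerivAt_of_tendstoUniformlyOn (isOpen_ball (x := c) (ε := r)) h1 (fun n z hz => ?_)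
      (fun z hz => hG i z (ball_subset_ball hr2.le hz)) (mem_ball.2 hr1)
    have hzR : z ∈ ball c R := ball_subset_ball hr2.le hz
    have h5 : ContDiffAt ℝ ∞ (f n) z := (hf n).contDiffAt (isOpen_ball.mem_nhds hzR)
    have h6 : DifferentiableAt ℝ (iteratedFDeriv ℝ i (f n)) z := by
      refine h5.differentiableAt_iteratedFDeriv ?_
      exact_mod_cast (WithTop.coe_lt_top (i : ℕ))
    have h7 := h6.hasFDerivAt
    have h8 : fderiv ℝ (iteratedFDeriv ℝ i (f n)) z
        = (iteratedFDeriv ℝ (i + 1) (f n) z).curryLeft := by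
      rw [fderiv_iteratedFDeriv]; rfl
    rw [h8] at h7; exact h7
  have hser : HasFTaylorSeriesUpToOn ∞ g p (ball c R) := by
    refine ⟨fun y hy => ?_, fun m _ y hy => (hder m y hy).hasFDerivWithinAt, fun m _ y hy => ?_⟩
    · have h1 := hG 0 y hy
      have h2 : Tendsto (fun n => (iteratedFDeriv ℝ 0 (f n) y).curry0) l (𝓝 ((G 0 y).curry0)) :=
        ((continuousMultilinearCurryFin0 ℝ E F).continuous.tendsto _).comp h1
      have h3 : (fun n => (iteratedFDeriv ℝ 0 (f n) y).curry0) = fun n => f n y := by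
        funext n; simp [iteratedFDeriv_zero_eq_comp]
      rw [h3] at h2
      exact tendsto_nhds_unique h2 (hlim y hy)
    · exact (hder m y hy).continuousAt.continuousWithinAt
  have hsm : ContDiffOn ℝ ∞ g (ball c R) := hser.contDiffOn
  have heq : ∀ i, ∀ y ∈ ball c R, G i y = iteratedFDeriv ℝ i g y := by
    intro i y hy
    have h1 := hser.eq_iteratedFDerivWithin_of_uniqueDiffOn (m := i)
      (by exact_mod_cast le_top) isOpen_ball.uniqueDiffOn hy
    rw [iteratedFDerivWithin_of_isOpen i isOpen_ball hy] at h1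
    exact h1
  refine ⟨hsm, fun i y hy => ?_, fun i y hy => ?_, fun i r hr => ?_⟩
  · rw [← heq i y hy]
    exact le_of_tendsto (hG i y hy).norm (Eventually.of_forall fun n => hM n i y hy)
  · rw [← heq i y hy]; exact hG i y hy
  · exact (hun i r hr).congr_right (fun y hy => heq i y (ball_subset_ball hr.le hy))

/-- intermediate derivatives are bounded by the function and the derivative of order `k` -/
theorem mid_bounds (k : ℕ) (i : ℕ) : i ≤ k → ∀ {r R B M : ℝ}, r < R → ∃ A : ℝ,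
    ∀ (f : E → F) (c : E), ContDiffOn ℝ ∞ f (ball c R) → (∀ y ∈ ball c R, ‖f y‖ ≤ B) →
    (∀ y ∈ ball c R, ‖iteratedFDeriv ℝ k f y‖ ≤ M) → ∀ y ∈ ball c r, ‖iteratedFDeriv ℝ i f y‖ ≤ A := by
  induction i with
  | zero =>
    intro _ r R B M hr
    refine ⟨B, fun f c _ hB _ y hy => ?_⟩
    rw [norm_iteratedFDeriv_zero]
    exact hB y (ball_subset_ball hr.le hy)
  | succ i ih =>
    intro hi r R B M hr
    set r' : ℝ := (r + R) / 2 with hr'
    have hrr' : r < r' := by rw [hr']; linarith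
    have hr'R : r' < R := by rw [hr']; linarith
    obtain ⟨A, hA⟩ := ih (by omega) (r := r') (R := R) (B := B) (M := M) hr'R
    set h : ℝ := (r' - r) / 2 with hh
    have hh0 : 0 < h := by rw [hh]; linarith
    refine ⟨cI (k - i) * (A / h + M * h ^ (k - i - 1)), fun f c hf hB hM y hy => ?_⟩
    have hsub : closedBall y h ⊆ ball c r' := by
      intro z hz
      rw [mem_closedBall] at hz
      rw [mem_ball] at hy ⊢
      calc dist z c ≤ dist z y + dist y c := dist_triangle _ _ _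
        _ < h + r := by linarith
        _ < r' := by rw [hh]; linarith
    have hstep := fderiv_bound (k := k - i) (by omega) (isOpen_ball (x := c) (ε := R)) hh0
      (hsub.trans (ball_subset_ball hr'R.le)) (contDiffOn_iter isOpen_ball hf i (k - i))
      (ρ := A) (M := M) (fun z hz => hA f c hf hB hM z (hsub hz))
      (fun z hz => by
        rw [norm_iter_iter, show i + (k - i) = k by omega]
        exact hM z (ball_subset_ball hr'R.le (hsub hz)))
    rw [norm_fderiv_iteratedFDeriv] at hstep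
    exact hstep

/-- The limit theorem with bounds for the function and for the derivatives of order `≥ k₀` only. -/
theorem smooth_of_limit_ge {ι : Type*} {l : Filter ι} [FiniteDimensional ℝ E] [CompleteSpace F]
    [l.NeBot] (k₀ : ℕ) (B : ℝ) (M : ℕ → ℝ) {f : ι → E → F} {g : E → F} {c : E} {R : ℝ}
    (hf : ∀ n, ContDiffOn ℝ ∞ (f n) (ball c R))
    (hB : ∀ n, ∀ y ∈ ball c R, ‖f n y‖ ≤ B)
    (hM : ∀ n i, k₀ ≤ i → ∀ y ∈ ball c R, ‖iteratedFDeriv ℝ i (f n) y‖ ≤ M i)
    (hlim : ∀ y ∈ ball c R, Tendsto (fun n => f n y) l (𝓝 (g y))) :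
    ContDiffOn ℝ ∞ g (ball c R) ∧ (∀ y ∈ ball c R, ‖g y‖ ≤ B) ∧
    (∀ i, k₀ ≤ i → ∀ y ∈ ball c R, ‖iteratedFDeriv ℝ i g y‖ ≤ M i) ∧
    (∀ i, ∀ y ∈ ball c R, Tendsto (fun n => iteratedFDeriv ℝ i (f n) y) l
      (𝓝 (iteratedFDeriv ℝ i g y))) ∧
    ∀ i, ∀ r < R, TendstoUniformlyOn (fun n => iteratedFDeriv ℝ i (f n))
      (iteratedFDeriv ℝ i g) l (ball c r) := by
  -- bounds of all orders on smaller balls
  have hall : ∀ r < R, ∃ M' : ℕ → ℝ, (∀ i, k₀ ≤ i → M' i = M i) ∧
      ∀ n i, ∀ y ∈ ball c r, ‖iteratedFDeriv ℝ i (f n) y‖ ≤ M' i := by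
    intro r hr
    have h1 : ∀ i : ℕ, i < k₀ → ∃ A : ℝ, ∀ n, ∀ y ∈ ball c r, ‖iteratedFDeriv ℝ i (f n) y‖ ≤ A := by
      intro i hi
      obtain ⟨A, hA⟩ := mid_bounds (E := E) (F := F) k₀ i hi.le (B := B) (M := M k₀) hr
      exact ⟨A, fun n y hy => hA (f n) c (hf n) (hB n) (hM n k₀ le_rfl) y hy⟩
    choose! A hA using h1
    refine ⟨fun i => if i < k₀ then A i else M i, fun i hi => if_neg (by omega), ?_⟩
    intro n i y hy
    by_cases hi : i < k₀
    · simp only [if_pos hi]; exact hA i hi n y hy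
    · simp only [if_neg hi]
      exact hM n i (by omega) y (ball_subset_ball hr.le hy)
  have hsmall : ∀ r < R, ContDiffOn ℝ ∞ g (ball c r) ∧
      (∀ i, ∀ y ∈ ball c r, Tendsto (fun n => iteratedFDeriv ℝ i (f n) y) l
        (𝓝 (iteratedFDeriv ℝ i g y))) ∧
      ∀ i, ∀ r' < r, TendstoUniformlyOn (fun n => iteratedFDeriv ℝ i (f n))
        (iteratedFDeriv ℝ i g) l (ball c r') := by
    intro r hr
    obtain ⟨M', _, hM'⟩ := hall r hr
    have hb : ball c r ⊆ ball c R := ball_subset_ball hr.le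
    obtain ⟨h1, _, h3, h4⟩ := smooth_of_limit M' (fun n => (hf n).mono hb) hM'
      (fun y hy => hlim y (hb hy))
    exact ⟨h1, h3, h4⟩
  have hconv : ∀ i, ∀ y ∈ ball c R, Tendsto (fun n => iteratedFDeriv ℝ i (f n) y) l
      (𝓝 (iteratedFDeriv ℝ i g y)) := by
    intro i y hy
    obtain ⟨r, hr1, hr2⟩ : ∃ r, dist y c < r ∧ r < R := exists_between (mem_ball.1 hy)
    exact (hsmall r hr2).2.1 i y (mem_ball.2 hr1)
  refine ⟨fun y hy => ?_, fun y hy => ?_, fun i hi y hy => ?_, hconv, fun i r hr => ?_⟩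
  · obtain ⟨r, hr1, hr2⟩ : ∃ r, dist y c < r ∧ r < R := exists_between (mem_ball.1 hy)
    exact ((hsmall r hr2).1.contDiffAt (isOpen_ball.mem_nhds (mem_ball.2 hr1))).contDiffWithinAt
  · exact le_of_tendsto (hlim y hy).norm (Eventually.of_forall fun n => hB n y hy)
  · exact le_of_tendsto (hconv i y hy).norm (Eventually.of_forall fun n => hM n i hi y hy)
  · obtain ⟨r', h1, h2⟩ := exists_between hr
    exact (hsmall r' h2).2.2 i r h1

end Vale.Agent.P207.H535
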